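import Vale.Agent.H38.Fusf.Main

open MeasureTheory

namespace Vale.Agent.Results.P143.A_FusfFactorFreeProductZ3

open Vale.Agent.H38.Fusf

/-- The free uniform spanning forest of the Cayley graph of `Z_3 * ... * Z_3` (`k` free factors,
standard generators and their inverses; the edge `e = (g, j)` joins `g` and `g * gen j`) is a
factor of independent uniform labels.

First part: the edges form a simple graph, no loops and every unordered pair of adjacent vertices
is listed exactly once.

Second part: there is a measurable map `Φ` from label configurations to edge configurations,
equivariant for the left action of the group (for all group elements, all configurations and all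
edges), such that for every increasing sequence `H n` of finite connected subgraphs whose union
contains every edge, and all finite sets of edges `F` and `A`, the probability that the uniform
spanning tree of `H n` contains among the edges of `F` exactly those of `A` converges to the
probability of the same event for `Φ` applied to independent labels, uniform on the unit interval.
These limits of cylinder probabilities define the free uniform spanning forest. -/
theorem result (k : ℕ) :
    ((∀ e : Edge k, e.1 ≠ e.1 * gen e.2) ∧
      ∀ e e' : Edge k,
        ({e.1, e.1 * gen e.2} : Set (Gam k)) = {e'.1, e'.1 * gen e'.2} → e = e') ∧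
    ∃ Φ : (Gam k → ℝ) → Edge k → Bool, Measurable Φ ∧
      (∀ (γ : Gam k) (u : Gam k → ℝ) (e : Edge k),
        Φ (fun g => u (γ⁻¹ * g)) (γ * e.1, e.2) = Φ u e) ∧
      ∀ H : ℕ → Finset (Edge k), Monotone H → (∀ e, ∃ n, e ∈ H n) → (∀ n, EConn (H n)) →
        ∀ F A : Finset (Edge k),
          Filter.Tendsto (fun n => ustProb (H n) F A) Filter.atTop
            (nhds ((Measure.infinitePi (fun _ : Gam k =>
              (volume : Measure ℝ).restrict (Set.Icc (0 : ℝ) 1)))
                {u | ∀ e ∈ F, (Φ u e = true ↔ e ∈ A)}).toReal) :=
  main k

end Vale.Agent.Results.P143.A_FusfFactorFreeProductZ3
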