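import Vale.Agent.H38.Fusf.MainB

open MeasureTheory

namespace Vale.Agent.Results.P143.B_FusfZ3NonamenBlockFactor

open Vale.Agent.H38.Fusf

/-- The free uniform spanning forest of the Cayley graph of `Z_3 * ... * Z_3` (`k` free factors,
standard generators and their inverses; the edge `e = (g, j)` joins `g` and `g * gen j`) is a
block factor of independent uniform labels, and the graph is nonamenable for `2 ≤ k`.

First part: the edges form a simple graph, no loops and every unordered pair of adjacent vertices
is listed exactly once.

Second part: if `2 ≤ k`, every finite set `A` of vertices has at least as many neighbours outside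
`A` as it has elements.

Third part: there is a measurable map `Φ` from label configurations to edge configurations,
equivariant for the left action of the group (for all group elements, all configurations and all
edges), whose value at an edge depends only on the labels of the three vertices of the triangle of
that edge, which contains every edge with probability two thirds, and such that for every
increasing sequence `H n` of finite connected subgraphs whose union contains every edge, and all
finite sets of edges `F` and `A`, the probability that the uniform spanning tree of `H n` contains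
among the edges of `F` exactly those of `A` converges to the probability of the same event for `Φ`
applied to independent labels, uniform on the unit interval. -/
theorem result (k : ℕ) :
    ((∀ e : Edge k, e.1 ≠ e.1 * gen e.2) ∧
      ∀ e e' : Edge k,
        ({e.1, e.1 * gen e.2} : Set (Gam k)) = {e'.1, e'.1 * gen e'.2} → e = e') ∧
    (2 ≤ k → ∀ A : Finset (Gam k), ∃ B : Finset (Gam k), Disjoint A B ∧ A.card ≤ B.card ∧
      ∀ y ∈ B, ∃ e : Edge k, (e.1 ∈ A ∧ y = e.1 * gen e.2) ∨ (e.1 * gen e.2 ∈ A ∧ y = e.1)) ∧
    ∃ Φ : (Gam k → ℝ) → Edge k → Bool, Measurable Φ ∧
      (∀ (γ : Gam k) (u : Gam k → ℝ) (e : Edge k),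
        Φ (fun g => u (γ⁻¹ * g)) (γ * e.1, e.2) = Φ u e) ∧
      (∀ (u u' : Gam k → ℝ) (e : Edge k), u e.1 = u' e.1 →
        u (e.1 * gen e.2) = u' (e.1 * gen e.2) →
        u (e.1 * gen e.2 * gen e.2) = u' (e.1 * gen e.2 * gen e.2) → Φ u e = Φ u' e) ∧
      (∀ e : Edge k, ((Measure.infinitePi (fun _ : Gam k =>
        (volume : Measure ℝ).restrict (Set.Icc (0 : ℝ) 1))) {u | Φ u e = true}).toReal = 2 / 3) ∧
      ∀ H : ℕ → Finset (Edge k), Monotone H → (∀ e, ∃ n, e ∈ H n) → (∀ n, EConn (H n)) →
        ∀ F A : Finset (Edge k),
          Filter.Tendsto (fun n => ustProb (H n) F A) Filter.atTop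
            (nhds ((Measure.infinitePi (fun _ : Gam k =>
              (volume : Measure ℝ).restrict (Set.Icc (0 : ℝ) 1)))
                {u | ∀ e ∈ F, (Φ u e = true ↔ e ∈ A)}).toReal) :=
  main_b k

end Vale.Agent.Results.P143.B_FusfZ3NonamenBlockFactor
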